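import Crest.Agent.R241.Defs

/-!
# (NL) `MajJ` from a quadratic upper bound (helper87).  Prefix `nl_`.
-/

open MeasureTheory Set Filter Topology
open Crest.GeometryTopology.MetricCurrent
open Crest.GeometryTopology.Submanifold (Euc unitBallVol unitSphereArea)
open scoped ENNReal NNReal InnerProductSpace

noncomputable section

namespace Crest.Agent.R241

universe u

variable {X : Type u} [MetricSpace X] {k : ℕ}

open scoped MatrixOrder in
/-- a positive definite form is `‖B v‖²` with `|det B| = √det` -/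
theorem nl_root {G : Matrix (Fin k) (Fin k) ℝ} (hG : G.PosDef) :
    ∃ B : Euc k ≃L[ℝ] Euc k, |(B : Euc k →L[ℝ] Euc k).det| = √G.det ∧
      ∀ v : Euc k, ‖B v‖ ^ 2 = ∑ a, ∑ b, G a b * v a * v b := by
  obtain ⟨M, hM⟩ := CStarAlgebra.nonneg_iff_eq_star_mul_self.1 hG.posSemidef.nonneg
  have hM' : G = M.transpose * M := by
    rw [hM, Matrix.star_eq_conjTranspose, Matrix.conjTranspose_eq_transpose_of_trivial]
  have hd : G.det = M.det ^ 2 := by rw [hM', Matrix.det_mul, Matrix.det_transpose, sq]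
  have hT : (Matrix.toEuclideanCLM (𝕜 := ℝ) M : Euc k →L[ℝ] Euc k).det = M.det :=
    LinearMap.det_toLpLin 2 M
  have h0 : (Matrix.toEuclideanCLM (𝕜 := ℝ) M : Euc k →L[ℝ] Euc k).det ≠ 0 := by
    rw [hT]
    intro h
    have := hG.det_pos
    rw [hd, h] at this
    simp at this
  refine ⟨ContinuousLinearMap.toContinuousLinearEquivOfDetNeZero _ h0, ?_, fun v => ?_⟩
  · rw [ContinuousLinearMap.coe_toContinuousLinearEquivOfDetNeZero, hT, hd, Real.sqrt_sq_eq_abs]
  · rw [ContinuousLinearMap.toContinuousLinearEquivOfDetNeZero_apply, EuclideanSpace.real_norm_sq_eq,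
      hM']
    simp only [Matrix.ofLp_toEuclideanCLM, Matrix.mulVec, dotProduct, Matrix.mul_apply,
      Matrix.transpose_apply, sq, Finset.sum_mul, Finset.mul_sum]
    rw [Finset.sum_comm]
    refine Finset.sum_congr rfl fun a _ => ?_
    rw [Finset.sum_comm]
    refine Finset.sum_congr rfl fun b _ => Finset.sum_congr rfl fun c _ => ?_
    ring

theorem nl_psd {E : Set (Euc k)} {φ : Euc k → X} {z : Euc k} {G : Matrix (Fin k) (Fin k) ℝ}
    (hG : G.PosSemidef) (h : ∀ ε > 0, ∀ᶠ z' in 𝓝[E] z,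
      dist (φ z') (φ z) ^ 2 ≤ ∑ a, ∑ b, G a b * (z' - z) a * (z' - z) b + ε * ‖z' - z‖ ^ 2) :
    MajJ E φ z √G.det := by
  intro δ hδ
  have hc : Continuous fun ε : ℝ => √(G + ε • (1 : Matrix (Fin k) (Fin k) ℝ)).det :=
    (continuous_const.add (continuous_id.smul continuous_const)).matrix_det.sqrt
  have h1 : ∀ᶠ ε in 𝓝 (0 : ℝ), √(G + ε • (1 : Matrix (Fin k) (Fin k) ℝ)).det < √G.det + δ :=
    hc.continuousAt.eventually_lt continuousAt_const (by simpa using hδ)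
  obtain ⟨ε, h2, hε⟩ := ((h1.filter_mono nhdsWithin_le_nhds).and
    (self_mem_nhdsWithin (s := Ioi (0 : ℝ)))).exists
  have hP : (G + ε • (1 : Matrix (Fin k) (Fin k) ℝ)).PosDef :=
    Matrix.PosDef.posSemidef_add hG (Matrix.PosDef.one.smul hε)
  obtain ⟨B, hB, hv⟩ := nl_root hP
  refine ⟨B, hB.trans_le h2.le, (h ε hε).mono fun z' hz => ?_⟩
  refine (pow_le_pow_iff_left₀ dist_nonneg (norm_nonneg _) two_ne_zero).1 (hz.trans_eq ?_)
  rw [hv, EuclideanSpace.real_norm_sq_eq, Finset.mul_sum, ← Finset.sum_add_distrib]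
  refine Finset.sum_congr rfl fun a _ => ?_
  simp only [Matrix.add_apply, Matrix.smul_apply, Matrix.one_apply, smul_eq_mul, add_mul,
    Finset.sum_add_distrib, mul_ite, mul_one, mul_zero, ite_mul, zero_mul, Finset.sum_ite_eq,
    Finset.mem_univ, if_true]
  ring

theorem nl_linear {F : Type*} [NormedAddCommGroup F] [InnerProductSpace ℝ F]
    {E : Set (Euc k)} {φ : Euc k → X} {z : Euc k} (A : Euc k →L[ℝ] F)
    (h : ∀ ε > 0, ∀ᶠ z' in 𝓝[E] z, dist (φ z') (φ z) ≤ ‖A (z' - z)‖ + ε * ‖z' - z‖) :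
    MajJ E φ z √(Matrix.of fun a b =>
      ⟪A (EuclideanSpace.single a 1), A (EuclideanSpace.single b 1)⟫_ℝ).det := by
  refine nl_psd (Matrix.posSemidef_gram ℝ fun a => A (EuclideanSpace.single a 1)) fun ε hε => ?_
  have hA : 0 < 2 * ‖A‖ + 1 := by positivity
  have hε' : 0 < min 1 (ε / (2 * ‖A‖ + 1)) := lt_min one_pos (div_pos hε hA)
  refine (h _ hε').mono fun z' hz => ?_
  set v := z' - z
  set t := min 1 (ε / (2 * ‖A‖ + 1))
  have e : ∑ a, ∑ b, (Matrix.of fun a b =>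
      ⟪A (EuclideanSpace.single a 1), A (EuclideanSpace.single b 1)⟫_ℝ) a b * v a * v b = ‖A v‖ ^ 2 := by
    have hv : A v = ∑ a, v a • A (EuclideanSpace.single a 1) := by
      conv_lhs => rw [← (EuclideanSpace.basisFun (Fin k) ℝ).sum_repr v]
      simp
    rw [← real_inner_self_eq_norm_sq, hv, sum_inner]
    refine Finset.sum_congr rfl fun a _ => ?_
    rw [inner_sum]
    refine Finset.sum_congr rfl fun b _ => ?_
    rw [real_inner_smul_left, real_inner_smul_right, Matrix.of_apply]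
    ring
  rw [e]
  have h1 : t ≤ 1 := min_le_left _ _
  have h2 : t * (2 * ‖A‖ + 1) ≤ ε := (le_div_iff₀ hA).1 (min_le_right _ _)
  have h3 : ‖A v‖ ≤ ‖A‖ * ‖v‖ := A.le_opNorm v
  have h4 : dist (φ z') (φ z) ^ 2 ≤ (‖A v‖ + t * ‖v‖) ^ 2 := pow_le_pow_left₀ dist_nonneg hz 2
  have h5 : t * ‖v‖ * ‖A v‖ ≤ t * ‖v‖ * (‖A‖ * ‖v‖) := by gcongr
  have h6 : t * t * ‖v‖ ^ 2 ≤ t * 1 * ‖v‖ ^ 2 := by gcongr
  have h7 : t * (2 * ‖A‖ + 1) * ‖v‖ ^ 2 ≤ ε * ‖v‖ ^ 2 := by gcongr
  nlinarith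

end Crest.Agent.R241
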